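import Mathlib

/-!
# Row 57: a generic matrix on a relation and the rectangle inequality
-/

set_option autoImplicit false

namespace Crest.Agent.R57

open Finset Module

/-- Sylvester's rank inequality in the form of a commuting square. -/
theorem square_card {K : Type*} [Field K] {S₁ S₂ G H : Type*} [Fintype S₁] [Fintype S₂]
    [Fintype G] [Fintype H] [DecidableEq S₁] [DecidableEq S₂] [DecidableEq G] [DecidableEq H]
    (α : Matrix G S₁ K) (β : Matrix H S₁ K) (γ : Matrix S₂ H K) (δ : Matrix S₂ G K)
    (hc : γ * β = δ * α) (hβ : ∀ s, β.mulVec s = 0 → s = 0)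
    (hγ : ∀ t, γ.transpose.mulVec t = 0 → t = 0) :
    Fintype.card S₁ + Fintype.card S₂ ≤ Fintype.card G + Fintype.card H := by
  have h1 := LinearMap.finrank_range_add_finrank_ker α.mulVecLin
  have h2 : finrank K (LinearMap.range α.mulVecLin) ≤ Fintype.card G := by
    simpa using Submodule.finrank_le (LinearMap.range α.mulVecLin)
  have h3 := LinearMap.finrank_range_add_finrank_ker γ.mulVecLin
  have h4 := LinearMap.finrank_range_add_finrank_ker γ.transpose.mulVecLin
  have h5 : LinearMap.ker γ.transpose.mulVecLin = ⊥ := by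
    rw [LinearMap.ker_eq_bot']
    intro t ht
    exact hγ t ht
  have h6 : finrank K (LinearMap.range γ.transpose.mulVecLin)
      = finrank K (LinearMap.range γ.mulVecLin) := Matrix.rank_transpose γ
  have hmap : ∀ s ∈ LinearMap.ker α.mulVecLin, β.mulVecLin s ∈ LinearMap.ker γ.mulVecLin := by
    intro s hs
    have hs' : α.mulVec s = 0 := hs
    show γ.mulVec (β.mulVec s) = 0
    rw [Matrix.mulVec_mulVec, hc, ← Matrix.mulVec_mulVec, hs', Matrix.mulVec_zero]
  have h7 : finrank K (LinearMap.ker α.mulVecLin) ≤ finrank K (LinearMap.ker γ.mulVecLin) := by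
    refine LinearMap.finrank_le_finrank_of_injective (f := β.mulVecLin.restrict hmap) ?_
    rw [← LinearMap.ker_eq_bot, LinearMap.ker_eq_bot']
    intro s hs
    have : β.mulVec s.1 = 0 := congrArg Subtype.val hs
    exact Subtype.ext (hβ _ this)
  rw [h5] at h4
  simp only [finrank_fintype_fun_eq_card, finrank_bot] at h1 h3 h4
  omega

variable {V : Type*} [Fintype V] [DecidableEq V]

/-- The field of rational functions in one variable per ordered pair. -/
abbrev KK (V : Type*) : Type _ := FractionRing (MvPolynomial (V × V) ℚ)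

open Classical in
/-- The generic matrix supported on the relation `r`. -/
noncomputable def gen (r : V → V → Prop) (j i : V) : KK V :=
  algebraMap (MvPolynomial (V × V) ℚ) (KK V) (if r i j then MvPolynomial.X (j, i) else 0)

omit [Fintype V] [DecidableEq V] in
theorem gen_eq_zero {r : V → V → Prop} {j i : V} (h : ¬ r i j) : gen r j i = 0 := by
  simp [gen, h]

omit [Fintype V] in
theorem gen_inj (r : V → V → Prop) (B : Finset V) (ψ : V → V)
    (hinj : ∀ a ∈ B, ∀ b ∈ B, ψ a = ψ b → a = b) (hr : ∀ a ∈ B, r a (ψ a)) (v : V → KK V)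
    (hz : ∀ a ∈ B, ∑ k ∈ B, gen r (ψ a) k * v k = 0) : ∀ a ∈ B, v a = 0 := by
  classical
  let M : Matrix B B (MvPolynomial (V × V) ℚ) :=
    fun a b => if r b (ψ a) then MvPolynomial.X (ψ a, (b : V)) else 0
  let φ : MvPolynomial (V × V) ℚ →+* ℚ :=
    MvPolynomial.eval (fun z => if z.1 = ψ z.2 then 1 else 0)
  have hM1 : φ.mapMatrix M = 1 := by
    ext a b
    by_cases hab : a = b
    · subst hab
      simp [M, φ, hr a a.2]
    · have : ψ a ≠ ψ b := fun h => hab (Subtype.ext (hinj _ a.2 _ b.2 h))
      rw [Matrix.one_apply_ne hab]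
      simp only [RingHom.mapMatrix_apply, Matrix.map_apply, M, φ]
      split_ifs <;> simp [this]
  have hdet : M.det ≠ 0 := by
    intro h
    have := φ.map_det M
    rw [hM1, h] at this
    simp at this
  let M' : Matrix B B (KK V) := (algebraMap (MvPolynomial (V × V) ℚ) (KK V)).mapMatrix M
  have hdet' : M'.det ≠ 0 := by
    rw [← RingHom.map_det]
    exact fun h => hdet ((IsFractionRing.injective (MvPolynomial (V × V) ℚ) (KK V))
      (by rw [h, map_zero]))
  have hv : M'.mulVec (fun b => v b) = 0 := by
    funext a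
    have := hz a a.2
    rw [← Finset.sum_coe_sort B (fun k => gen r (ψ a) k * v k)] at this
    simp only [Matrix.mulVec, dotProduct, Pi.zero_apply]
    rw [← this]
    refine Finset.sum_congr rfl fun b _ => ?_
    simp only [M', M, RingHom.mapMatrix_apply, Matrix.map_apply, gen]
  have := Matrix.eq_zero_of_mulVec_eq_zero hdet' hv
  intro a ha
  exact congrFun this ⟨a, ha⟩

/-- Injectivity of the column map. -/
theorem col_inj (r : V → V → Prop) (G C R H : V → V → Prop)
    (hrect : ∀ q j p i, C q j → R p i → r q p → r i j → G q i)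
    (hH : ∀ q j p i, C q j → R p i → r q p → r i j → H p j)
    (ν : V → V → V) (hν : ∀ q i, G q i → r q (ν q i) ∧ R (ν q i) i)
    (hνi : ∀ q q' i, G q i → G q' i → ν q i = ν q' i → q = q')
    (s : V → V → KK V) (hs : ∀ q j, s q j ≠ 0 → C q j ∧ ∃ i, G q i ∧ r i j)
    (hz : ∀ p j, H p j → ∑ q, gen r p q * s q j = 0) : ∀ q j, s q j = 0 := by
  classical
  intro q₀ j
  by_contra h0
  obtain ⟨-, i, hG, hij⟩ := hs q₀ j h0
  refine h0 (gen_inj r (univ.filter fun q => G q i) (fun q => ν q i) ?_ ?_ (fun q => s q j) ?_ q₀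
    (by simpa using hG))
  · intro a ha b hb h
    exact hνi a b i (by simpa using ha) (by simpa using hb) h
  · intro a ha
    exact (hν a i (by simpa using ha)).1
  · intro a ha
    have hR := (hν a i (by simpa using ha)).2
    by_cases hp : H (ν a i) j
    · rw [← hz _ _ hp]
      refine Finset.sum_subset (Finset.subset_univ _) fun q _ hq => ?_
      by_contra hne
      have h1 : r q (ν a i) := by
        by_contra h
        exact hne (by rw [gen_eq_zero h, zero_mul])
      have h2 : s q j ≠ 0 := fun h => hne (by rw [h, mul_zero])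
      exact hq (by simpa using hrect q j _ i (hs q j h2).1 hR h1 hij)
    · refine Finset.sum_eq_zero fun q _ => ?_
      by_contra hne
      have h1 : r q (ν a i) := by
        by_contra h
        exact hne (by rw [gen_eq_zero h, zero_mul])
      have h2 : s q j ≠ 0 := fun h => hne (by rw [h, mul_zero])
      exact hp (hH q j _ i (hs q j h2).1 hR h1 hij)

/-- The rectangle inequality. -/
theorem rect_card (r : V → V → Prop) (G S₁ S₂ H : Finset (V × V)) (C R : V → V → Prop)
    (hrect : ∀ q j p i, C q j → R p i → r q p → r i j → (q, i) ∈ G)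
    (hH : ∀ q j p i, C q j → R p i → r q p → r i j → (p, j) ∈ H)
    (ν : V → V → V) (hν : ∀ q i, (q, i) ∈ G → r q (ν q i) ∧ R (ν q i) i)
    (hνi : ∀ q q' i, (q, i) ∈ G → (q', i) ∈ G → ν q i = ν q' i → q = q')
    (μ : V → V → V) (hμ : ∀ i q, (q, i) ∈ G → r i (μ i q) ∧ C q (μ i q))
    (hμi : ∀ i i' q, (q, i) ∈ G → (q, i') ∈ G → μ i q = μ i' q → i = i')
    (hS₁ : ∀ q j, (q, j) ∈ S₁ → C q j ∧ ∃ i, (q, i) ∈ G ∧ r i j)
    (hS₂ : ∀ p i, (p, i) ∈ S₂ → R p i ∧ ∃ q, (q, i) ∈ G ∧ r q p) :
    S₁.card + S₂.card ≤ G.card + H.card := by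
  classical
  let α : Matrix G S₁ (KK V) := fun g s => if g.1.1 = s.1.1 then gen r s.1.2 g.1.2 else 0
  let β : Matrix H S₁ (KK V) := fun h s => if h.1.2 = s.1.2 then gen r h.1.1 s.1.1 else 0
  let γ : Matrix S₂ H (KK V) := fun t h => if h.1.1 = t.1.1 then gen r h.1.2 t.1.2 else 0
  let δ : Matrix S₂ G (KK V) := fun t g => if g.1.2 = t.1.2 then gen r t.1.1 g.1.1 else 0
  have key := square_card α β γ δ ?_ ?_ ?_
  · simpa using key
  · ext t s
    obtain ⟨⟨p, i⟩, ht⟩ := t
    obtain ⟨⟨q, j⟩, hs⟩ := s
    have hC := (hS₁ q j hs).1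
    have hR := (hS₂ p i ht).1
    by_cases hr : r q p ∧ r i j
    · rw [Matrix.mul_apply, Matrix.mul_apply,
        Finset.sum_eq_single (⟨(p, j), hH q j p i hC hR hr.1 hr.2⟩ : H),
        Finset.sum_eq_single (⟨(q, i), hrect q j p i hC hR hr.1 hr.2⟩ : G)]
      · simp [α, β, γ, δ, mul_comm]
      · rintro ⟨⟨a, b⟩, hab⟩ - hne
        by_cases h1 : b = i
        · have h2 : a ≠ q := by
            rintro rfl
            exact hne (Subtype.ext (by simp [h1]))
          simp [α, h2]
        · simp [δ, h1]
      · simp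
      · rintro ⟨⟨a, b⟩, hab⟩ - hne
        by_cases h1 : a = p
        · have h2 : b ≠ j := by
            rintro rfl
            exact hne (Subtype.ext (by simp [h1]))
          simp [β, h2]
        · simp [γ, h1]
      · simp
    · rw [Matrix.mul_apply, Matrix.mul_apply, Finset.sum_eq_zero, Finset.sum_eq_zero]
      · rintro ⟨⟨a, b⟩, hab⟩ -
        simp only [α, δ]
        split_ifs with h1 h2
        · subst h1 h2
          rcases not_and_or.1 hr with h | h <;> simp [gen_eq_zero h]
        all_goals simp
      · rintro ⟨⟨a, b⟩, hab⟩ -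
        simp only [β, γ]
        split_ifs with h1 h2
        · subst h1 h2
          rcases not_and_or.1 hr with h | h <;> simp [gen_eq_zero h]
        all_goals simp
  · intro s hs
    let s' : V → V → KK V := fun q j => if h : (q, j) ∈ S₁ then s ⟨_, h⟩ else 0
    have := col_inj r (fun q i => (q, i) ∈ G) C R (fun p j => (p, j) ∈ H) hrect hH ν hν hνi s'
      (fun q j h => hS₁ q j (by
        by_contra h'
        exact h (by simp [s', h']))) ?_
    · funext ⟨⟨q, j⟩, h⟩
      simpa [s', h] using this q j
    · intro p j hp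
      have h1 := congrFun hs ⟨(p, j), hp⟩
      simp only [Matrix.mulVec, dotProduct, Pi.zero_apply, β] at h1
      rw [← h1]
      have h2 : ∑ x : S₁, (if j = x.1.2 then gen r p x.1.1 else 0) * s x
          = ∑ x : V × V, (if j = x.2 then gen r p x.1 else 0) * s' x.1 x.2 := by
        rw [← Finset.sum_subset (Finset.subset_univ S₁)
          (fun x _ hx => by simp [s', hx]), ← Finset.sum_coe_sort S₁]
        exact Finset.sum_congr rfl fun x _ => by simp [s']
      rw [h2, Fintype.sum_prod_type]
      refine Finset.sum_congr rfl fun q _ => ?_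
      simp
  · intro s hs
    let s' : V → V → KK V := fun i p => if h : (p, i) ∈ S₂ then s ⟨_, h⟩ else 0
    have := col_inj r (fun i q => (q, i) ∈ G) (fun i p => R p i) (fun j q => C q j)
      (fun j p => (p, j) ∈ H) (fun i p j q h1 h2 h3 h4 => hrect q j p i h2 h1 h4 h3)
      (fun i p j q h1 h2 h3 h4 => hH q j p i h2 h1 h4 h3) μ hμ hμi s'
      (fun i p h => hS₂ p i (by
        by_contra h'
        exact h (by simp [s', h']))) ?_
    · funext ⟨⟨p, i⟩, h⟩
      simpa [s', h] using this i p
    · intro j p hp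
      have h1 := congrFun hs ⟨(p, j), hp⟩
      simp only [Matrix.mulVec, dotProduct, Pi.zero_apply, γ, Matrix.transpose_apply] at h1
      rw [← h1]
      have h2 : ∑ x : S₂, (if p = x.1.1 then gen r j x.1.2 else 0) * s x
          = ∑ x : V × V, (if p = x.1 then gen r j x.2 else 0) * s' x.2 x.1 := by
        rw [← Finset.sum_subset (Finset.subset_univ S₂)
          (fun x _ hx => by simp [s', hx]), ← Finset.sum_coe_sort S₂]
        exact Finset.sum_congr rfl fun x _ => by simp [s']
      rw [h2, Fintype.sum_prod_type_right]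
      refine Finset.sum_congr rfl fun q _ => ?_
      simp

end Crest.Agent.R57
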