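import Mathlib

/-!
# Row 57: the pruning lemma for an arc-minimal counterexample
-/

set_option autoImplicit false

namespace Crest.Agent.R57

open Finset

variable {V : Type*} [Fintype V] [DecidableEq V]

open Classical in
/-- The out-neighbourhood of a set. -/
noncomputable def F (A : V → V → Prop) (S : Finset V) : Finset V :=
  univ.filter fun w => ∃ u ∈ S, A u w

omit [DecidableEq V] in
theorem mem_F {A : V → V → Prop} {S : Finset V} {w : V} : w ∈ F A S ↔ ∃ u ∈ S, A u w := by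
  simp [F]

/-- The outer boundary size. -/
noncomputable def bd (A : V → V → Prop) (S : Finset V) : ℕ := (F A S \ S).card

/-- Every vertex has more first than second out-neighbours. -/
def Bad (A : V → V → Prop) : Prop := ∀ v, bd A (F A {v}) < (F A {v}).card

theorem prune_step (A : V → V → Prop) (hA : Bad A) (S Y : Finset V) (hY : Y ⊆ F A S \ S)
    (hmin : ∀ Y' ⊆ F A S \ S, ((F A Y \ ((F A S ∩ S) ∪ Y)).card : ℤ) - Y.card ≤
      ((F A Y' \ ((F A S ∩ S) ∪ Y')).card : ℤ) - Y'.card) :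
    Bad (fun u w => A u w ∧ ¬ (u ∈ S ∧ w ∈ (F A S \ S) \ Y)) := by
  intro v
  set A' : V → V → Prop := fun u w => A u w ∧ ¬ (u ∈ S ∧ w ∈ (F A S \ S) \ Y) with hA'
  have hv := hA v
  unfold bd at hv ⊢
  by_cases hvS : v ∈ S
  · set B := F A S ∩ S with hB
    set W := F A {v} ∩ ((F A S \ S) \ Y) with hW
    set L := F A W \ (F A Y ∪ B ∪ Y ∪ W) with hL
    have hN : F A' {v} = F A {v} \ W := by
      ext w
      simp only [hW, mem_F, hA', mem_singleton, exists_eq_left, mem_sdiff, mem_inter, hvS,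
        true_and]
      exact ⟨fun h => ⟨h.1, fun h' => h.2 h'.2⟩, fun h => ⟨h.1, fun h' => h.2 ⟨h.1, h'⟩⟩⟩
    have hNsub : ∀ w ∈ F A {v}, w ∈ B ∨ w ∈ Y ∨ w ∈ W := by
      intro w hw
      have h1 : w ∈ F A S := by
        rw [mem_F] at hw ⊢
        obtain ⟨u, hu, h⟩ := hw
        exact ⟨u, by rwa [mem_singleton.1 hu], h⟩
      simp only [hB, hW, mem_inter, mem_sdiff]
      tauto
    have hWsub : W ⊆ F A {v} := inter_subset_left
    have hWC : W ⊆ F A S \ S := fun w hw => (mem_sdiff.1 (mem_inter.1 hw).2).1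
    have hWY : ∀ w ∈ W, w ∉ Y := fun w hw => (mem_sdiff.1 (mem_inter.1 hw).2).2
    have hWB : ∀ w ∈ W, w ∉ B := fun w hw h => (mem_sdiff.1 (hWC hw)).2 (mem_inter.1 h).2
    have hreach : ∀ w ∈ F A' (F A' {v}), w ∈ F A (F A {v}) ∧ (w ∈ B ∨ w ∈ Y ∨ w ∈ F A Y) := by
      intro w hw
      obtain ⟨u, hu, huw, hn⟩ := mem_F.1 hw
      rw [hN, mem_sdiff] at hu
      refine ⟨mem_F.2 ⟨u, hu.1, huw⟩, ?_⟩
      rcases hNsub u hu.1 with h | h | h
      · have huS := (mem_inter.1 h).2
        have h1 : w ∈ F A S := mem_F.2 ⟨u, huS, huw⟩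
        simp only [hB, mem_inter, mem_sdiff] at hn ⊢
        tauto
      · exact Or.inr (Or.inr (mem_F.2 ⟨u, h, huw⟩))
      · exact absurd h hu.2
    have hLsub : L ⊆ F A (F A {v}) \ F A {v} := by
      intro w hw
      rw [hL, mem_sdiff] at hw
      obtain ⟨u, hu, huw⟩ := mem_F.1 hw.1
      refine mem_sdiff.2 ⟨mem_F.2 ⟨u, hWsub hu, huw⟩, fun h => hw.2 ?_⟩
      have := hNsub w h
      simp only [mem_union]
      tauto
    have hsub : F A' (F A' {v}) \ F A' {v} ⊆ ((F A (F A {v}) \ F A {v}) \ L) ∪ (W ∩ F A Y) := by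
      intro w hw
      rw [mem_sdiff] at hw
      obtain ⟨h1, h2⟩ := hreach w hw.1
      have h3 := hw.2
      rw [hN] at h3
      have h4 := hWY w
      have h5 := hWB w
      simp only [hL, mem_union, mem_sdiff, mem_inter] at h3 ⊢
      generalize (w ∈ F A (F A {v})) = a at *
      generalize (w ∈ F A {v}) = b at *
      generalize (w ∈ F A W) = c at *
      generalize (w ∈ F A Y) = d at *
      generalize (w ∈ W) = e at *
      generalize (w ∈ B) = f at *
      generalize (w ∈ Y) = g at *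
      clear * - h1 h2 h3 h4 h5
      tauto
    have c1 := card_le_card hsub
    have c2 := card_union_le ((F A (F A {v}) \ F A {v}) \ L) (W ∩ F A Y)
    have c3 := card_sdiff_add_card_eq_card hLsub
    have c4 := card_sdiff_add_card_eq_card hWsub
    have c5 := hmin (Y ∪ W) (union_subset hY hWC)
    have c6 : (Y ∪ W).card = Y.card + W.card :=
      card_union_of_disjoint (disjoint_right.2 hWY)
    have c7 : F A (Y ∪ W) \ (B ∪ (Y ∪ W)) ⊆ ((F A Y \ (B ∪ Y)) \ (W ∩ F A Y)) ∪ L := by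
      intro w hw
      rw [mem_sdiff] at hw
      obtain ⟨u, hu, huw⟩ := mem_F.1 hw.1
      have h2 := hw.2
      have h3 : w ∈ F A Y ∨ w ∈ F A W := by
        rcases mem_union.1 hu with h | h
        · exact Or.inl (mem_F.2 ⟨u, h, huw⟩)
        · exact Or.inr (mem_F.2 ⟨u, h, huw⟩)
      simp only [hL, mem_union, mem_sdiff, mem_inter] at h2 ⊢
      generalize (w ∈ F A W) = c at *
      generalize (w ∈ F A Y) = d at *
      generalize (w ∈ W) = e at *
      generalize (w ∈ B) = f at *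
      generalize (w ∈ Y) = g at *
      clear * - h2 h3
      tauto
    have c8 := card_le_card c7
    have c9 := card_union_le ((F A Y \ (B ∪ Y)) \ (W ∩ F A Y)) L
    have c10 : W ∩ F A Y ⊆ F A Y \ (B ∪ Y) := by
      intro w hw
      have h4 := hWY w
      have h5 := hWB w
      simp only [mem_union, mem_sdiff, mem_inter] at hw ⊢
      tauto
    have c11 := card_sdiff_add_card_eq_card c10
    rw [hN] at c1 ⊢
    omega
  · have hN : F A' {v} = F A {v} := by
      ext w
      simp only [mem_F, hA', mem_singleton, exists_eq_left]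
      tauto
    rw [hN]
    refine lt_of_le_of_lt (card_le_card fun w hw => ?_) hv
    rw [mem_sdiff] at hw ⊢
    obtain ⟨u, hu, huw, -⟩ := mem_F.1 hw.1
    exact ⟨mem_F.2 ⟨u, hu, huw⟩, hw.2⟩

/-- An arc-minimal counterexample has strictly shrinking boundaries. -/
theorem exists_pruned (A₀ : V → V → Prop) (h₀ : Bad A₀) :
    ∃ A : V → V → Prop, (∀ u w, A u w → A₀ u w) ∧ Bad A ∧
      ∀ S : Finset V, bd A S = 0 ∧ bd A (F A S) = 0 ∨ bd A (F A S) < bd A S := by
  classical
  let m : (V → V → Prop) → ℕ := fun A => (univ.filter fun z : V × V => A z.1 z.2).card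
  obtain ⟨A, ⟨hsub, hA⟩, hmin⟩ := (InvImage.wf m Nat.lt_wfRel.wf).has_min
    {A | (∀ u w, A u w → A₀ u w) ∧ Bad A} ⟨A₀, fun _ _ h => h, h₀⟩
  refine ⟨A, hsub, hA, fun S => ?_⟩
  have huniq : ∀ Y ⊆ F A S \ S, (∀ Y' ⊆ F A S \ S,
      ((F A Y \ ((F A S ∩ S) ∪ Y)).card : ℤ) - Y.card ≤
      ((F A Y' \ ((F A S ∩ S) ∪ Y')).card : ℤ) - Y'.card) → Y = F A S \ S := by
    intro Y hY hm
    by_contra hne
    refine hmin _ ⟨fun u w h => hsub u w h.1, prune_step A hA S Y hY hm⟩ ?_
    obtain ⟨w, hw, hwY⟩ := exists_of_ssubset (Finset.ssubset_iff_subset_ne.2 ⟨hY, hne⟩)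
    obtain ⟨u, hu, huw⟩ := mem_F.1 (mem_sdiff.1 hw).1
    refine card_lt_card ⟨fun z hz => ?_, fun h => ?_⟩
    · simp only [mem_filter, mem_univ, true_and] at hz ⊢
      exact hz.1
    · have := @h (u, w) (by simpa using huw)
      simp only [mem_filter, mem_univ, true_and] at this
      exact this.2 ⟨hu, mem_sdiff.2 ⟨hw, hwY⟩⟩
  obtain ⟨Y, hY, hm⟩ := exists_min_image (F A S \ S).powerset
    (fun Y => ((F A Y \ ((F A S ∩ S) ∪ Y)).card : ℤ) - Y.card) ⟨∅, empty_mem_powerset _⟩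
  have hYe := huniq Y (mem_powerset.1 hY) fun Y' h => hm Y' (mem_powerset.2 h)
  have hsub2 : F A (F A S) \ F A S ⊆ F A (F A S \ S) \ ((F A S ∩ S) ∪ (F A S \ S)) := by
    intro w hw
    rw [mem_sdiff] at hw
    obtain ⟨u, hu, huw⟩ := mem_F.1 hw.1
    have huS : u ∉ S := fun h => hw.2 (mem_F.2 ⟨u, h, huw⟩)
    refine mem_sdiff.2 ⟨mem_F.2 ⟨u, mem_sdiff.2 ⟨hu, huS⟩, huw⟩, ?_⟩
    have := hw.2
    simp only [mem_union, mem_sdiff, mem_inter]
    tauto
  have c1 := card_le_card hsub2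
  have hF0 : F A (∅ : Finset V) = ∅ := by
    ext w
    simp [mem_F]
  have c2 := hm ∅ (empty_mem_powerset _)
  rw [hYe] at c2 hm
  simp only [hF0, empty_sdiff, card_empty] at c2
  unfold bd
  by_cases hc : ((F A (F A S \ S) \ ((F A S ∩ S) ∪ (F A S \ S))).card : ℤ) - (F A S \ S).card < 0
  · right
    omega
  · left
    have := huniq ∅ (empty_subset _) fun Y' h => by
      have := hm Y' (mem_powerset.2 h)
      rw [hF0, empty_sdiff, card_empty]
      omega
    rw [← this, hF0, empty_sdiff, card_empty] at c1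
    rw [← this, card_empty]
    omega

end Crest.Agent.R57
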