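import Crest.Agent.R57.Generic
import Crest.Agent.R57.Prune

/-!
# Row 57: the extremal argument on `V × V`
-/

set_option autoImplicit false

namespace Crest.Agent.R57

open Finset

variable {V : Type*} [Fintype V] [DecidableEq V]

open Classical in
/-- Row-wise out-neighbourhood of a set of pairs. -/
noncomputable def PZ (A : V → V → Prop) (X : Finset (V × V)) : Finset (V × V) :=
  univ.filter fun z => ∃ i, (z.1, i) ∈ X ∧ A i z.2

theorem mem_PZ {A : V → V → Prop} {X : Finset (V × V)} {p j : V} :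
    (p, j) ∈ PZ A X ↔ ∃ i, (p, i) ∈ X ∧ A i j := by
  simp [PZ]

/-- A row of a set of pairs. -/
def row (X : Finset (V × V)) (p : V) : Finset V := univ.filter fun j => (p, j) ∈ X

theorem mem_row {X : Finset (V × V)} {p j : V} : j ∈ row X p ↔ (p, j) ∈ X := by
  simp [row]

theorem card_rows (X : Finset (V × V)) : X.card = ∑ p, (row X p).card := by
  have : X.card = ∑ z : V × V, if z ∈ X then 1 else 0 := by simp
  rw [this, Fintype.sum_prod_type]
  exact Finset.sum_congr rfl fun p _ => by rw [row, card_filter]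

theorem row_PZ (A : V → V → Prop) (X : Finset (V × V)) (p : V) :
    row (PZ A X) p = F A (row X p) := by
  ext j
  simp [mem_row, mem_PZ, mem_F]

/-- Total row boundary. -/
noncomputable def bZ (A : V → V → Prop) (X : Finset (V × V)) : ℕ := (PZ A X \ X).card

theorem bZ_eq (A : V → V → Prop) (X : Finset (V × V)) : bZ A X = ∑ p, bd A (row X p) := by
  rw [bZ, card_rows]
  refine Finset.sum_congr rfl fun p _ => ?_
  rw [bd, ← row_PZ]
  congr 1
  ext j
  simp [mem_row]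

theorem bZ_add (A : V → V → Prop) (X : Finset (V × V)) :
    bZ A X + X.card = (PZ A X ∪ X).card := card_sdiff_add_card _ _

theorem bZ_prune {A : V → V → Prop}
    (h : ∀ S : Finset V, bd A S = 0 ∧ bd A (F A S) = 0 ∨ bd A (F A S) < bd A S)
    (X : Finset (V × V)) : bZ A (PZ A X) ≤ bZ A X ∧ (bZ A X ≤ bZ A (PZ A X) → bZ A X = 0) := by
  rw [bZ_eq, bZ_eq]
  have h1 : ∀ p ∈ (univ : Finset V), bd A (row (PZ A X) p) ≤ bd A (row X p) := fun p _ => by
    rw [row_PZ]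
    have := h (row X p)
    omega
  refine ⟨Finset.sum_le_sum h1, fun h2 => Finset.sum_eq_zero fun p hp => ?_⟩
  by_contra h3
  refine absurd h2 (not_le.2 (Finset.sum_lt_sum h1 ⟨p, hp, ?_⟩))
  rw [row_PZ]
  have := h (row X p)
  omega

/-- Transposition. -/
def sw (Y : Finset (V × V)) : Finset (V × V) := Y.map (Equiv.prodComm V V).toEmbedding

omit [Fintype V] [DecidableEq V] in
theorem mem_sw {Y : Finset (V × V)} {p j : V} : (p, j) ∈ sw Y ↔ (j, p) ∈ Y := by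
  simp [sw, Finset.mem_map_equiv]

omit [Fintype V] [DecidableEq V] in
theorem card_sw (Y : Finset (V × V)) : (sw Y).card = Y.card := card_map _

theorem mem_closed {A : V → V → Prop} {X : Finset (V × V)} {p j : V} :
    (p, j) ∈ PZ A X ∪ X ↔ ∃ i, (p, i) ∈ X ∧ (i = j ∨ A i j) := by
  rw [mem_union, mem_PZ]
  constructor
  · rintro (⟨i, h1, h2⟩ | h)
    · exact ⟨i, h1, Or.inr h2⟩
    · exact ⟨j, h, Or.inl rfl⟩
  · rintro ⟨i, h1, rfl | h2⟩
    · exact Or.inr h1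
    · exact Or.inl ⟨i, h1, h2⟩

/-- Growth-minimality gives a matching of the gap. -/
theorem exists_matching (A : V → V → Prop) (X Y : Finset (V × V))
    (hd : ∀ p j, (p, j) ∈ X → (j, p) ∉ Y)
    (hmin : ∀ X', X ⊆ X' → (∀ p j, (p, j) ∈ X' → (j, p) ∉ Y) → bZ A X ≤ bZ A X') :
    ∃ μ : V → V → V, (∀ i q, (q, i) ∉ X → (i, q) ∉ Y →
        (i = μ i q ∨ A i (μ i q)) ∧ (q, μ i q) ∉ PZ A X ∪ X) ∧
      ∀ i i' q, (q, i) ∉ X → (i, q) ∉ Y → (q, i') ∉ X → (i', q) ∉ Y → μ i q = μ i' q → i = i' := by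
  classical
  let t : {z : V × V // z ∉ X ∧ (z.2, z.1) ∉ Y} → Finset (V × V) :=
    fun z => (PZ A {z.1} ∪ {z.1}) \ (PZ A X ∪ X)
  obtain ⟨f, hf, hft⟩ := (Finset.all_card_le_biUnion_card_iff_exists_injective t).1 (by
    intro s
    let G₁ : Finset (V × V) := s.map (Function.Embedding.subtype _)
    have hG : ∀ z ∈ G₁, z ∉ X ∧ (z.2, z.1) ∉ Y := by
      intro z hz
      obtain ⟨y, -, rfl⟩ := mem_map.1 hz
      exact y.2
    have c1 : G₁.card = s.card := card_map _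
    have c2 := hmin (X ∪ G₁) subset_union_left fun p j h => by
      rcases mem_union.1 h with h | h
      · exact hd p j h
      · exact (hG _ h).2
    have c3 := bZ_add A X
    have c4 := bZ_add A (X ∪ G₁)
    have c5 : (X ∪ G₁).card = X.card + G₁.card :=
      card_union_of_disjoint (disjoint_right.2 fun z hz => (hG z hz).1)
    have c6 : PZ A (X ∪ G₁) ∪ (X ∪ G₁) ⊆ (PZ A X ∪ X) ∪ s.biUnion t := by
      rintro ⟨p, j⟩ hz
      by_cases h : (p, j) ∈ PZ A X ∪ X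
      · exact mem_union_left _ h
      · obtain ⟨i, h1, h2⟩ := mem_closed.1 hz
        rcases mem_union.1 h1 with h1 | h1
        · exact absurd (mem_closed.2 ⟨i, h1, h2⟩) h
        · obtain ⟨y, hy, hyi⟩ := mem_map.1 h1
          refine mem_union_right _ (mem_biUnion.2 ⟨y, hy, mem_sdiff.2 ⟨?_, h⟩⟩)
          exact mem_closed.2 ⟨i, mem_singleton.2 hyi.symm, h2⟩
    have c7 := card_le_card c6
    have c8 := card_union_le (PZ A X ∪ X) (s.biUnion t)
    omega)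
  have hf2 : ∀ i q (h : (q, i) ∉ X ∧ (i, q) ∉ Y), (f ⟨(q, i), h⟩).1 = q ∧
      (i = (f ⟨(q, i), h⟩).2 ∨ A i (f ⟨(q, i), h⟩).2) ∧ f ⟨(q, i), h⟩ ∉ PZ A X ∪ X := by
    intro i q h
    have h1 := mem_sdiff.1 (hft ⟨(q, i), h⟩)
    obtain ⟨k, h2, h3⟩ := mem_closed.1 (show ((f ⟨(q, i), h⟩).1, (f ⟨(q, i), h⟩).2) ∈ _ from h1.1)
    obtain ⟨h4, h5⟩ := Prod.mk.inj (mem_singleton.1 h2)
    exact ⟨h4, h5 ▸ h3, h1.2⟩
  refine ⟨fun i q => if h : (q, i) ∉ X ∧ (i, q) ∉ Y then (f ⟨(q, i), h⟩).2 else i, ?_, ?_⟩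
  · intro i q h1 h2
    obtain ⟨h3, h4, h5⟩ := hf2 i q ⟨h1, h2⟩
    simp only [dif_pos (And.intro h1 h2)]
    refine ⟨h4, fun h => h5 ?_⟩
    rwa [show f ⟨(q, i), ⟨h1, h2⟩⟩ = (q, (f ⟨(q, i), ⟨h1, h2⟩⟩).2) from Prod.ext h3 rfl]
  · intro i i' q h1 h2 h1' h2' h
    simp only [dif_pos (And.intro h1 h2), dif_pos (And.intro h1' h2')] at h
    have := hf (Prod.ext ((hf2 i q ⟨h1, h2⟩).1.trans (hf2 i' q ⟨h1', h2'⟩).1.symm) h)
    exact (Prod.mk.inj (congrArg Subtype.val this)).2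

open Classical in
/-- The closed column core of a set of pairs. -/
noncomputable def core (A : V → V → Prop) (X : Finset (V × V)) : Finset (V × V) :=
  univ.filter fun z => ∀ q, (q = z.1 ∨ A q z.1) → (q, z.2) ∈ X

theorem mem_core {A : V → V → Prop} {X : Finset (V × V)} {p i : V} :
    (p, i) ∈ core A X ↔ ∀ q, (q = p ∨ A q p) → (q, i) ∈ X := by
  simp [core]

/-- The core together with the diagonal. -/
noncomputable def cd (A : V → V → Prop) (X : Finset (V × V)) : Finset (V × V) :=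
  core A X ∪ univ.diag

theorem mem_cd {A : V → V → Prop} {X : Finset (V × V)} {p i : V} :
    (p, i) ∈ cd A X ↔ (p, i) ∈ core A X ∨ p = i := by
  simp [cd]

/-- The closed image of the core together with the arcs. -/
noncomputable def hat (A : V → V → Prop) (X : Finset (V × V)) : Finset (V × V) :=
  PZ A (cd A X) ∪ core A X

theorem mem_hat {A : V → V → Prop} {X : Finset (V × V)} {p j : V} (h : (p, j) ∈ hat A X) :
    A p j ∨ ∃ i, (p, i) ∈ core A X ∧ (i = j ∨ A i j) := by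
  rcases mem_union.1 h with h | h
  · obtain ⟨i, h1, h2⟩ := mem_PZ.1 h
    rcases mem_cd.1 h1 with h1 | rfl
    · exact Or.inr ⟨i, h1, Or.inr h2⟩
    · exact Or.inl h2
  · exact Or.inr ⟨j, h, Or.inl rfl⟩

theorem bZ_cd (A : V → V → Prop) (X : Finset (V × V)) :
    bZ A (cd A X) + (core A X).card ≤ (hat A X).card := by
  rw [hat, ← card_sdiff_add_card, bZ]
  exact Nat.add_le_add_right (card_le_card (sdiff_subset_sdiff Subset.rfl subset_union_left)) _

theorem hat_closed {A : V → V → Prop} {X : Finset (V × V)} (hX : ∀ p j, A p j → (p, j) ∈ X)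
    {p q j : V} (h : (p, j) ∈ hat A X) (hq : q = p ∨ A q p) : (q, j) ∈ PZ A X ∪ X := by
  rcases mem_hat h with h | ⟨i, h1, h2⟩
  · rcases hq with rfl | hq
    · exact mem_union_right _ (hX _ _ h)
    · exact mem_closed.2 ⟨p, hX _ _ hq, Or.inr h⟩
  · exact mem_closed.2 ⟨i, mem_core.1 h1 q hq, h2⟩

theorem hat_disj {A : V → V → Prop} (hopp : ∀ u v, A u v → ¬ A v u) {X Y : Finset (V × V)}
    (hX : ∀ p j, A p j → (p, j) ∈ X) (hY : ∀ p j, A p j → (p, j) ∈ Y)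
    (hd : ∀ p j, (p, j) ∈ X → (j, p) ∉ Y) (p j : V) (h1 : (p, j) ∈ hat A X) :
    (j, p) ∉ hat A Y := by
  intro h2
  rcases mem_hat h2 with h3 | ⟨q, h3, h4⟩
  · rcases mem_hat h1 with h5 | ⟨i, h5, h6⟩
    · exact hopp _ _ h5 h3
    · obtain ⟨q, h7, h8⟩ := mem_closed.1 (hat_closed hY h2 h6)
      exact hd _ _ (mem_core.1 h5 q h8) h7
  · obtain ⟨i, h7, h8⟩ := mem_closed.1 (hat_closed hX h1 h4)
    exact hd _ _ h7 (mem_core.1 h3 i h8)

/-- The key inequality for a growth-minimal pair. -/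
theorem key_ineq {A : V → V → Prop} (hopp : ∀ u v, A u v → ¬ A v u) {X Y : Finset (V × V)}
    (hX : ∀ p j, A p j → (p, j) ∈ X) (hY : ∀ p j, A p j → (p, j) ∈ Y)
    (hd : ∀ p j, (p, j) ∈ X → (j, p) ∉ Y)
    (hminX : ∀ X', X ⊆ X' → (∀ p j, (p, j) ∈ X' → (j, p) ∉ Y) → bZ A X ≤ bZ A X')
    (hminY : ∀ Y', Y ⊆ Y' → (∀ p j, (p, j) ∈ Y' → (j, p) ∉ X) → bZ A Y ≤ bZ A Y') :
    bZ A (cd A X) + bZ A (cd A Y) ≤ bZ A X + bZ A Y := by
  have hd' : ∀ p j, (p, j) ∈ Y → (j, p) ∉ X := fun p j h h' => hd _ _ h' h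
  obtain ⟨μ, hμ, hμi⟩ := exists_matching A X Y hd hminX
  obtain ⟨ν, hν, hνi⟩ := exists_matching A Y X hd' hminY
  set G : Finset (V × V) := univ \ (X ∪ sw Y) with hG
  have mG : ∀ q i, (q, i) ∈ G ↔ (q, i) ∉ X ∧ (i, q) ∉ Y := by
    intro q i
    simp [hG, mem_sw]
  set H : Finset (V × V) := univ \ (hat A X ∪ sw (hat A Y)) with hH
  set S₁ : Finset (V × V) := univ \ (sw (core A Y) ∪ (PZ A X ∪ X)) with hS₁
  set S₂ : Finset (V × V) := univ \ (core A X ∪ sw (PZ A Y ∪ Y)) with hS₂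
  have key := rect_card (fun i j => i = j ∨ A i j) G S₁ S₂ H
    (fun q j => (q, j) ∉ PZ A X ∪ X) (fun p i => (i, p) ∉ PZ A Y ∪ Y)
    (fun q j p i h1 h2 h3 h4 => (mG q i).2
      ⟨fun h => h1 (mem_closed.2 ⟨i, h, h4⟩), fun h => h2 (mem_closed.2 ⟨q, h, h3⟩)⟩)
    (fun q j p i h1 h2 h3 h4 => mem_sdiff.2 ⟨mem_univ _, fun h => by
      rcases mem_union.1 h with h | h
      · exact h1 (hat_closed hX h h3)
      · exact h2 (hat_closed hY (mem_sw.1 h) h4)⟩)
    ν (fun q i h => hν q i ((mG q i).1 h).2 ((mG q i).1 h).1)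
    (fun q q' i h h' => hνi q q' i ((mG q i).1 h).2 ((mG q i).1 h).1 ((mG q' i).1 h').2
      ((mG q' i).1 h').1)
    μ (fun i q h => hμ i q ((mG q i).1 h).1 ((mG q i).1 h).2)
    (fun i i' q h h' => hμi i i' q ((mG q i).1 h).1 ((mG q i).1 h).2 ((mG q i').1 h').1
      ((mG q i').1 h').2)
    (fun q j h => by
      have h1 := (mem_sdiff.1 h).2
      rw [mem_union, not_or, mem_sw, mem_core] at h1
      obtain ⟨h2, h3⟩ := h1
      push Not at h2
      obtain ⟨i, h4, h5⟩ := h2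
      exact ⟨h3, i, (mG q i).2 ⟨fun h => h3 (mem_closed.2 ⟨i, h, h4⟩), h5⟩, h4⟩)
    (fun p i h => by
      have h1 := (mem_sdiff.1 h).2
      rw [mem_union, not_or, mem_sw, mem_core] at h1
      obtain ⟨h2, h3⟩ := h1
      push Not at h2
      obtain ⟨q, h4, h5⟩ := h2
      exact ⟨h3, q, (mG q i).2 ⟨h5, fun h => h3 (mem_closed.2 ⟨q, h, h4⟩)⟩, h4⟩)
  have c1 := card_sdiff_add_card_eq_card (subset_univ (X ∪ sw Y))
  have c2 := card_sdiff_add_card_eq_card (subset_univ (hat A X ∪ sw (hat A Y)))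
  have c3 := card_sdiff_add_card_eq_card (subset_univ (sw (core A Y) ∪ (PZ A X ∪ X)))
  have c4 := card_sdiff_add_card_eq_card (subset_univ (core A X ∪ sw (PZ A Y ∪ Y)))
  have c5 : (X ∪ sw Y).card = X.card + Y.card := by
    rw [card_union_of_disjoint (disjoint_left.2 fun ⟨p, j⟩ h h' => hd p j h (mem_sw.1 h')),
      card_sw]
  have c6 : (hat A X ∪ sw (hat A Y)).card = (hat A X).card + (hat A Y).card := by
    rw [card_union_of_disjoint (disjoint_left.2 fun ⟨p, j⟩ h h' =>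
      hat_disj hopp hX hY hd p j h (mem_sw.1 h')), card_sw]
  have c7 := card_union_le (sw (core A Y)) (PZ A X ∪ X)
  have c8 := card_union_le (core A X) (sw (PZ A Y ∪ Y))
  rw [card_sw] at c7 c8
  have c9 := bZ_cd A X
  have c10 := bZ_cd A Y
  have c11 := bZ_add A X
  have c12 := bZ_add A Y
  rw [← hG] at c1
  rw [← hH] at c2
  rw [← hS₁] at c3
  rw [← hS₂] at c4
  omega

theorem not_bad [Nonempty V] (A₀ : V → V → Prop) (hloop₀ : ∀ v, ¬ A₀ v v)
    (hopp₀ : ∀ u v, A₀ u v → ¬ A₀ v u) : ¬ Bad A₀ := by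
  classical
  intro h₀
  obtain ⟨A, hsub, hA, hpr⟩ := exists_pruned A₀ h₀
  have hloop : ∀ v, ¬ A v v := fun v h => hloop₀ v (hsub _ _ h)
  have hopp : ∀ u v, A u v → ¬ A v u := fun u v h h' => hopp₀ u v (hsub _ _ h) (hsub _ _ h')
  let m : Finset (V × V) × Finset (V × V) → ℕ := fun W => bZ A W.1 + bZ A W.2
  obtain ⟨⟨X, Y⟩, ⟨hX, hY, hd⟩, hmin⟩ := (InvImage.wf m Nat.lt_wfRel.wf).has_min
    {W | (∀ p j, A p j → (p, j) ∈ W.1) ∧ (∀ p j, A p j → (p, j) ∈ W.2) ∧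
      ∀ p j, (p, j) ∈ W.1 → (j, p) ∉ W.2}
    ⟨(univ.filter fun z => A z.1 z.2, univ.filter fun z => A z.1 z.2), by simp, by simp,
      by simpa using hopp⟩
  dsimp only at hX hY hd
  have hmin' : ∀ X' Y' : Finset (V × V), (∀ p j, A p j → (p, j) ∈ X') →
      (∀ p j, A p j → (p, j) ∈ Y') → (∀ p j, (p, j) ∈ X' → (j, p) ∉ Y') →
      bZ A X + bZ A Y ≤ bZ A X' + bZ A Y' :=
    fun X' Y' h1 h2 h3 => not_lt.1 (hmin (X', Y') ⟨h1, h2, h3⟩)
  have k1 := key_ineq hopp hX hY hd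
    (fun X' h1 h2 => by
      have := hmin' X' Y (fun p j h => h1 (hX p j h)) hY h2
      omega)
    (fun Y' h1 h2 => by
      have := hmin' X Y' hX (fun p j h => h1 (hY p j h)) fun p j h h' => h2 _ _ h' h
      omega)
  have hin : ∀ (W : Finset (V × V)) p j, A p j → (p, j) ∈ PZ A (cd A W) :=
    fun W p j h => mem_PZ.2 ⟨p, mem_cd.2 (Or.inr rfl), h⟩
  have k2 := hmin' (PZ A (cd A X)) (PZ A (cd A Y)) (hin X) (hin Y) fun p j h h' =>
    hat_disj hopp hX hY hd p j (mem_union_left _ h) (mem_union_left _ h')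
  have k3 := bZ_prune hpr (cd A X)
  have k4 := bZ_prune hpr (cd A Y)
  have k5 : bZ A (cd A X) = 0 := k3.2 (by omega)
  have hcl : ∀ p i j, (p, i) ∈ cd A X → A i j → (p, j) ∈ cd A X := by
    intro p i j h1 h2
    have := sdiff_eq_empty_iff_subset.1 (card_eq_zero.1 k5)
    exact this (mem_PZ.2 ⟨i, h1, h2⟩)
  have hout : ∀ v, ∃ w, A v w := by
    intro v
    obtain ⟨w, hw⟩ := card_pos.1 (lt_of_le_of_lt (Nat.zero_le _) (hA v))
    obtain ⟨u, hu, h⟩ := mem_F.1 hw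
    exact ⟨w, mem_singleton.1 hu ▸ h⟩
  choose f hf using hout
  obtain ⟨v⟩ := ‹Nonempty V›
  obtain ⟨a, b, hab, he⟩ : ∃ a b : ℕ, a < b ∧ f^[a] v = f^[b] v := by
    obtain ⟨a, b, hne, he⟩ := Finite.exists_ne_map_eq_of_infinite fun k : ℕ => f^[k] v
    rcases lt_or_gt_of_ne hne with h | h
    · exact ⟨a, b, h, he⟩
    · exact ⟨b, a, h, he.symm⟩
  have hall : ∀ t, (f^[a] v, f^[a + t] v) ∈ cd A X := by
    intro t
    induction t with
    | zero => exact mem_cd.2 (Or.inr rfl)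
    | succ t ih =>
      rw [← Nat.add_assoc, Function.iterate_succ_apply']
      exact hcl _ _ _ ih (hf _)
  obtain ⟨t, rfl⟩ := Nat.exists_eq_add_of_lt hab
  rw [Function.iterate_succ_apply'] at he
  have harc : A (f^[a + t] v) (f^[a] v) := he ▸ hf _
  rcases mem_cd.1 (hall t) with h | h
  · exact hd _ _ (mem_core.1 h _ (Or.inl rfl)) (hY _ _ harc)
  · exact hloop _ (h ▸ harc)

end Crest.Agent.R57
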